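import Vale.Agent.P329.Metab

open Vale.Agent.P329 in
/-- Let the finite group `G` have a normal subgroup `N` such that `N` is abelian and `G ⧸ N` is
abelian of exponent dividing a prime `p`. Then every language over a finite alphabet recognized by
`G` has generalized star height at most one. -/
theorem Vale.Agent.Results.P329.AbelianByElementary.result {A G : Type} [Finite A] [Group G]
    [Finite G] (N : Subgroup G) [N.Normal] (hN : ∀ x ∈ N, ∀ y ∈ N, x * y = y * x) (p : ℕ)
    (hp : p.Prime) (hQ : ∀ x y : G ⧸ N, x * y = y * x) (hQp : ∀ x : G ⧸ N, x ^ p = 1)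
    (φ : A → G) (S : Set G) :
    HasGSH 1 ({w | (w.map φ).prod ∈ S} : Language A) :=
  hasGSH_metab N hN p hp hQ hQp φ S
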