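import Vale.Agent.P329.Metab

open Vale.Agent.P329 in
/-- Let `δ` be a finite deterministic automaton and `c` a state such that the automaton in which
every transition out of `c` is redirected to a new dead state is aperiodic: the iterates of each
word on each state become constant. Then the language of words leading from any state `q` to any
state `q'` has generalized star height at most one. -/
theorem Vale.Agent.Results.P329.FeedbackVertex.result {A Q : Type} [Finite A] [Finite Q]
    [DecidableEq Q] (δ : Q → A → Q) (c : Q)
    (h : ∀ (u : List A) (x : Option Q), ∃ n : ℕ,
      (fun y => u.foldl (fun z a => z.bind (fun s => if s = c then none else some (δ s a))) y)^[n + 1] x =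
      (fun y => u.foldl (fun z a => z.bind (fun s => if s = c then none else some (δ s a))) y)^[n] x)
    (q q' : Q) :
    HasGSH 1 ({w | w.foldl δ q = q'} : Language A) := by
  have hd : del δ c = fun z a => z.bind (fun s => if s = c then none else some (δ s a)) := by
    funext z a
    cases z with
    | none => rfl
    | some s =>
      simp only [del, Option.bind_some]
      congr
  have hA : Aper (del δ c) := by
    intro u x
    rw [hd]
    exact h u x
  exact hasGSH_of_S1 (s1_of_aper_del hA q q')
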