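import Vale.Agent.P329.MetabGroup

open Vale.Agent.P329 in
/-- Let `G` be a finite group of nilpotency class at most three, or a finite metabelian group of
nilpotency class at most four. Then every language over a finite alphabet recognized by `G` has
generalized star height at most one. -/
theorem Vale.Agent.Results.P329.MetabClassFour.result {A G : Type} [Finite A] [Group G] [Finite G]
    (h : (⊤ : Subgroup G).lowerCentralSeries 3 = ⊥ ∨
      ((⊤ : Subgroup G).lowerCentralSeries 4 = ⊥ ∧
        ∀ x ∈ commutator G, ∀ y ∈ commutator G, x * y = y * x))
    (φ : A → G) (S : Set G) :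
    HasGSH 1 ({w | (w.map φ).prod ∈ S} : Language A) :=
  hasGSH_class3_or_metab4 h φ S
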