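import Vale.Agent.P329.Subword3

open Vale.Agent.P329 in
/-- For every word `v` of length at most three and every modulus `n`, the set of words in which
`v` occurs as a scattered subword a number of times congruent to `r` modulo `n` has generalized
star height at most one. -/
theorem Vale.Agent.Results.P329.SubwordThree.result {A : Type} [Fintype A] [DecidableEq A]
    (v : List A) (hv : v.length ≤ 3) (n r : ℕ) (hn : 0 < n) :
    HasGSH 1 ({w | subwordCount v w ≡ r [MOD n]} : Language A) := by
  haveI : NeZero n := ⟨hn.ne'⟩
  refine hasGSH_of_S1 ((meas_sw hv n (r : ZMod n)).congr (fun w => ?_))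
  exact ZMod.natCast_eq_natCast_iff _ _ _
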